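import Vale.Agent.Lib.Helper7.P064T6
import Vale.Agent.Lib.P064T.ForestCount

/-!
P034 for the families generated by the copies of a star forest: the permutation count (L1).

For a star forest `H` on `Fin n` all of whose subgraphs have expected count at least `1/2` at
density `q`, the number of permutations `σ` of the vertex set with `S ⊆ E(σ H)` is at most
`n! * (2000 q)^|S|`, for every set `S` of pairs.
-/

namespace Vale.Agent.Lib.Helper2.P034G

open Finset
open Vale.Agent.Lib.P064T (IsStarForest)

/-- The pull-back of a set of pairs `S` along a permutation `σ0`, as a graph. -/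
def pullGraph {n : ℕ} (S : Finset (Sym2 (Fin n))) (σ0 : Equiv.Perm (Fin n)) :
    SimpleGraph (Fin n) :=
  SimpleGraph.fromEdgeSet ((Sym2.map σ0) ⁻¹' (S : Set (Sym2 (Fin n))))

theorem pullGraph_adj {n : ℕ} (S : Finset (Sym2 (Fin n))) (σ0 : Equiv.Perm (Fin n))
    (a b : Fin n) : (pullGraph S σ0).Adj a b ↔ s(σ0 a, σ0 b) ∈ S ∧ a ≠ b := by
  unfold pullGraph
  rw [SimpleGraph.fromEdgeSet_adj]
  simp

theorem pullGraph_le {n : ℕ} (H : SimpleGraph (Fin n)) (S : Finset (Sym2 (Fin n)))
    (σ0 : Equiv.Perm (Fin n))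
    (h0 : (S : Set (Sym2 (Fin n))) ⊆ (H.map σ0.toEmbedding).edgeSet) :
    pullGraph S σ0 ≤ H := by
  intro a b hab
  rw [pullGraph_adj] at hab
  have h1 : s(σ0 a, σ0 b) ∈ (H.map σ0.toEmbedding).edgeSet := h0 (by exact_mod_cast hab.1)
  rw [SimpleGraph.mem_edgeSet] at h1
  have h2 : (H.map σ0.toEmbedding).Adj (σ0.toEmbedding a) (σ0.toEmbedding b) := h1
  rwa [SimpleGraph.map_adj_apply] at h2

theorem pullGraph_ncard {n : ℕ} (H : SimpleGraph (Fin n)) (S : Finset (Sym2 (Fin n)))
    (σ0 : Equiv.Perm (Fin n))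
    (h0 : (S : Set (Sym2 (Fin n))) ⊆ (H.map σ0.toEmbedding).edgeSet) :
    (pullGraph S σ0).edgeSet.ncard = S.card := by
  have hE : (pullGraph S σ0).edgeSet = (Sym2.map σ0) ⁻¹' (S : Set (Sym2 (Fin n))) := by
    unfold pullGraph
    rw [SimpleGraph.edgeSet_fromEdgeSet]
    ext e
    constructor
    · exact fun h => h.1
    · intro he
      refine ⟨he, ?_⟩
      induction e using Sym2.ind with
      | _ a b =>
        intro hd
        have hab : a = b := by simpa using hd
        subst hab
        have h1 : s(σ0 a, σ0 a) ∈ (H.map σ0.toEmbedding).edgeSet := h0 (by simpa using he)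
        rw [SimpleGraph.mem_edgeSet] at h1
        exact (H.map σ0.toEmbedding).loopless.irrefl _ h1
  have hinj : Function.Injective (Sym2.map σ0) := Sym2.map.injective σ0.injective
  have hsurj : Function.Surjective (Sym2.map σ0) := by
    intro e
    refine ⟨Sym2.map σ0.symm e, ?_⟩
    induction e using Sym2.ind with
    | _ a b => simp
  rw [hE, ← Set.ncard_image_of_injective _ hinj, Set.image_preimage_eq _ hsurj,
    Set.ncard_coe_finset]

/-- The labelled copy of `pullGraph S σ0` in `H` attached to a permutation `σ` with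
`S ⊆ E(σ H)`. -/
def copyOf {n : ℕ} (H : SimpleGraph (Fin n)) (S : Finset (Sym2 (Fin n)))
    (σ0 σ : Equiv.Perm (Fin n))
    (h : (S : Set (Sym2 (Fin n))) ⊆ (H.map σ.toEmbedding).edgeSet) :
    SimpleGraph.Copy (pullGraph S σ0) H where
  toHom :=
    { toFun := fun a => σ.symm (σ0 a)
      map_rel' := by
        intro a b hab
        rw [pullGraph_adj] at hab
        have h1 : s(σ0 a, σ0 b) ∈ (H.map σ.toEmbedding).edgeSet := h (by exact_mod_cast hab.1)
        rw [SimpleGraph.mem_edgeSet] at h1
        have h2 : (H.map σ.toEmbedding).Adj (σ.toEmbedding (σ.symm (σ0 a)))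
            (σ.toEmbedding (σ.symm (σ0 b))) := by
          simpa using h1
        rwa [SimpleGraph.map_adj_apply] at h2 }
  injective' := by
    intro a b hab
    have h1 : σ.symm (σ0 a) = σ.symm (σ0 b) := hab
    exact σ0.injective (σ.symm.injective h1)

theorem copyOf_apply {n : ℕ} (H : SimpleGraph (Fin n)) (S : Finset (Sym2 (Fin n)))
    (σ0 σ : Equiv.Perm (Fin n))
    (h : (S : Set (Sym2 (Fin n))) ⊆ (H.map σ.toEmbedding).edgeSet) (a : Fin n) :
    copyOf H S σ0 σ h a = σ.symm (σ0 a) := rfl

open scoped Classical in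
/-- L1: the number of permutations `σ` with `S ⊆ E(σ H)`. -/
theorem perm_count_le {n : ℕ} (H : SimpleGraph (Fin n)) (hH : IsStarForest H) (q : ℝ) (hq0 : 0 ≤ q)
    (hyp : ∀ F : SimpleGraph (Fin n), F ≤ H →
      1 / 2 ≤ ((⊤ : SimpleGraph (Fin n)).copyCount F : ℝ) * q ^ F.edgeSet.ncard)
    (S : Finset (Sym2 (Fin n))) :
    (((Finset.univ : Finset (Equiv.Perm (Fin n))).filter (fun σ =>
        (S : Set (Sym2 (Fin n))) ⊆ (H.map σ.toEmbedding).edgeSet)).card : ℝ)
      ≤ (n.factorial : ℝ) * (2000 * q) ^ S.card := by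
  set T := (Finset.univ : Finset (Equiv.Perm (Fin n))).filter (fun σ =>
        (S : Set (Sym2 (Fin n))) ⊆ (H.map σ.toEmbedding).edgeSet) with hT
  rcases T.eq_empty_or_nonempty with hemp | ⟨σ0, hσ0⟩
  · rw [hemp, Finset.card_empty, Nat.cast_zero]
    positivity
  · have h0 : (S : Set (Sym2 (Fin n))) ⊆ (H.map σ0.toEmbedding).edgeSet := by
      have := hσ0
      rw [hT, Finset.mem_filter] at this
      exact this.2
    have hle : pullGraph S σ0 ≤ H := pullGraph_le H S σ0 h0
    have hnc : (pullGraph S σ0).edgeSet.ncard = S.card := pullGraph_ncard H S σ0 h0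
    -- the injection
    have hmemT : ∀ σ : T, (S : Set (Sym2 (Fin n))) ⊆ (H.map σ.1.toEmbedding).edgeSet := by
      intro σ
      exact (Finset.mem_filter.mp σ.2).2
    have hcard : T.card ≤ H.labelledCopyCount (pullGraph S σ0) := by
      rw [Vale.Agent.Lib.Helper7.P064M.labelled_eq_natCard, ← Nat.card_eq_finsetCard T]
      have : Finite (SimpleGraph.Copy (pullGraph S σ0) H) :=
        Finite.of_injective (fun f : SimpleGraph.Copy (pullGraph S σ0) H => (f : Fin n → Fin n))
          (fun f g hfg => by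
            ext a
            exact congrArg Fin.val (congrFun hfg a))
      refine Nat.card_le_card_of_injective (fun σ : T => copyOf H S σ0 σ.1 (hmemT σ)) ?_
      intro σ τ hστ
      apply Subtype.ext
      have h1 : ∀ a, σ.1.symm (σ0 a) = τ.1.symm (σ0 a) := by
        intro a
        have := congrArg (fun f : SimpleGraph.Copy (pullGraph S σ0) H => f a) hστ
        simpa [copyOf_apply] using this
      have h2 : σ.1.symm = τ.1.symm := by
        ext b
        have := h1 (σ0.symm b)
        simpa using congrArg Fin.val this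
      have h3 := congrArg Equiv.symm h2
      simpa using h3
    have hq'0 : 0 ≤ min 1 (2 * q) := le_min zero_le_one (by positivity)
    have hlab := Vale.Agent.Lib.Helper7.P064M.forest_labelled_of (pullGraph S σ0) H
      (Vale.Agent.Lib.P064T.forest_count (pullGraph S σ0) H (hH.mono hle)) (min 1 (2 * q)) hq'0
      (Vale.Agent.Lib.Helper7.P064M.hyp_double H q hq0 hyp)
    rw [Vale.Agent.Lib.Helper7.P064M.labelled_top, Fintype.card_fin, Nat.descFactorial_self,
      hnc] at hlab
    have hmin : min 1 (1000 * min 1 (2 * q)) ≤ 2000 * q :=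
      le_trans (Vale.Agent.Lib.Helper7.P064M.min_double_le q) (min_le_right _ _)
    have hmin0 : 0 ≤ min 1 (1000 * min 1 (2 * q)) := le_min zero_le_one (by positivity)
    calc (T.card : ℝ) ≤ (H.labelledCopyCount (pullGraph S σ0) : ℝ) := by exact_mod_cast hcard
      _ ≤ (n.factorial : ℝ) * (min 1 (1000 * min 1 (2 * q))) ^ S.card := hlab
      _ ≤ (n.factorial : ℝ) * (2000 * q) ^ S.card :=
          mul_le_mul_of_nonneg_left (pow_le_pow_left₀ hmin0 hmin _) (Nat.cast_nonneg _)

end Vale.Agent.Lib.Helper2.P034G
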