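import Mathlib

/-!
Lemmas for the star-forest form of the counting inequality of P064: a product of falling
factorials against one falling factorial, and restriction of labelled copies of a graph on a
sigma type to its components.
-/

namespace Vale.Agent.Lib.Helper2.P064U

open Finset

/-- `n^v * v! ≤ v^v * (n)_v` for `v ≤ n` (termwise `n (v - i) ≤ v (n - i)`). -/
theorem pow_mul_factorial_le (n v : ℕ) (hv : v ≤ n) :
    n ^ v * v.factorial ≤ v ^ v * n.descFactorial v := by
  have h1 : v.factorial = ∏ i ∈ range v, (v - i) := by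
    rw [← Nat.descFactorial_self, Nat.descFactorial_eq_prod_range]
  have h2 : n.descFactorial v = ∏ i ∈ range v, (n - i) := Nat.descFactorial_eq_prod_range n v
  have h3 : n ^ v = ∏ _i ∈ range v, n := by rw [Finset.prod_const, Finset.card_range]
  have h4 : v ^ v = ∏ _i ∈ range v, v := by rw [Finset.prod_const, Finset.card_range]
  rw [h1, h2, h3, h4, ← Finset.prod_mul_distrib, ← Finset.prod_mul_distrib]
  refine Finset.prod_le_prod' (fun i hi => ?_)
  have hi' : i < v := Finset.mem_range.1 hi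
  -- n * (v - i) ≤ v * (n - i)
  obtain ⟨a, rfl⟩ := Nat.exists_eq_add_of_le hv
  obtain ⟨b, rfl⟩ := Nat.exists_eq_add_of_lt hi'
  have e1 : i + b + 1 - i = b + 1 := by omega
  have e2 : i + b + 1 + a - i = b + 1 + a := by omega
  rw [e1, e2]
  nlinarith

/-- `n^v ≤ e^v (n)_v` for `v ≤ n`. -/
theorem pow_le_exp_mul_descFactorial (n v : ℕ) (hv : v ≤ n) :
    (n : ℝ) ^ v ≤ Real.exp v * (n.descFactorial v : ℝ) := by
  have h1 : ((n ^ v * v.factorial : ℕ) : ℝ) ≤ ((v ^ v * n.descFactorial v : ℕ) : ℝ) := by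
    exact_mod_cast pow_mul_factorial_le n v hv
  push_cast at h1
  have h2 : (v : ℝ) ^ v / (v.factorial : ℝ) ≤ Real.exp v :=
    Real.pow_div_factorial_le_exp (v : ℝ) (Nat.cast_nonneg v) v
  have hf : (0 : ℝ) < v.factorial := by exact_mod_cast Nat.factorial_pos v
  have h3 : (v : ℝ) ^ v ≤ Real.exp v * (v.factorial : ℝ) := by
    rwa [div_le_iff₀ hf] at h2
  have hd : (0 : ℝ) ≤ (n.descFactorial v : ℝ) := Nat.cast_nonneg _
  have h4 : (n : ℝ) ^ v * (v.factorial : ℝ) ≤
      Real.exp v * (n.descFactorial v : ℝ) * (v.factorial : ℝ) := by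
    calc (n : ℝ) ^ v * (v.factorial : ℝ) ≤ (v : ℝ) ^ v * (n.descFactorial v : ℝ) := h1
      _ ≤ Real.exp v * (v.factorial : ℝ) * (n.descFactorial v : ℝ) :=
          mul_le_mul_of_nonneg_right h3 hd
      _ = Real.exp v * (n.descFactorial v : ℝ) * (v.factorial : ℝ) := by ring
  exact le_of_mul_le_mul_right h4 hf

/-- U3: a product of falling factorials against one falling factorial. -/
theorem prod_descFactorial_le (n : ℕ) {t : ℕ} (k : Fin t → ℕ) (hv : ∑ j, (k j + 1) ≤ n) :
    (∏ j, (n.descFactorial (k j + 1) : ℝ)) ≤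
      Real.exp ((∑ j, (k j + 1) : ℕ) : ℝ) * (n.descFactorial (∑ j, (k j + 1)) : ℝ) := by
  have h1 : (∏ j, (n.descFactorial (k j + 1) : ℝ)) ≤ ∏ j : Fin t, (n : ℝ) ^ (k j + 1) := by
    refine Finset.prod_le_prod (fun j _ => Nat.cast_nonneg _) (fun j _ => ?_)
    exact_mod_cast Nat.descFactorial_le_pow n (k j + 1)
  have h2 : ∏ j : Fin t, (n : ℝ) ^ (k j + 1) = (n : ℝ) ^ (∑ j, (k j + 1)) :=
    Finset.prod_pow_eq_pow_sum _ _ _
  rw [h2] at h1
  exact h1.trans (pow_le_exp_mul_descFactorial n _ hv)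



/-- Labelled copies of a graph on a sigma type restrict to labelled copies of each component:
if every inclusion of `Fj j` into `F` is a homomorphism, then the number of labelled copies of
`F` is at most the product of the numbers of labelled copies of the `Fj j`. -/
theorem labelledCopyCount_sigma_le {V : Type*} [Fintype V] {ι : Type*} [Fintype ι]
    {W : ι → Type*} [∀ j, Fintype (W j)] (H : SimpleGraph V) (F : SimpleGraph (Σ j, W j))
    (Fj : ∀ j, SimpleGraph (W j)) (hincl : ∀ j a b, (Fj j).Adj a b → F.Adj ⟨j, a⟩ ⟨j, b⟩) :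
    H.labelledCopyCount F ≤ ∏ j, H.labelledCopyCount (Fj j) := by
  classical
  let Φ : SimpleGraph.Copy F H → (∀ j, SimpleGraph.Copy (Fj j) H) := fun f j =>
    ⟨⟨fun a => f ⟨j, a⟩, fun {a b} hab => f.toHom.map_adj (hincl j a b hab)⟩,
      fun a b hab => by
        have h := f.injective hab
        simpa using h⟩
  have hΦ : Function.Injective Φ := by
    intro f g hfg
    ext ⟨j, a⟩
    exact congrArg (fun φ => (φ j) a) hfg
  have e1 : H.labelledCopyCount F = Nat.card (SimpleGraph.Copy F H) := by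
    unfold SimpleGraph.labelledCopyCount
    exact Fintype.card_eq_nat_card
  have e2 : ∀ j, H.labelledCopyCount (Fj j) = Nat.card (SimpleGraph.Copy (Fj j) H) := by
    intro j
    unfold SimpleGraph.labelledCopyCount
    exact Fintype.card_eq_nat_card
  rw [e1, Finset.prod_congr rfl (fun j _ => e2 j)]
  calc Nat.card (SimpleGraph.Copy F H) ≤ Nat.card (∀ j, SimpleGraph.Copy (Fj j) H) :=
        Nat.card_le_card_of_injective Φ hΦ
    _ = ∏ j, Nat.card (SimpleGraph.Copy (Fj j) H) := Nat.card_pi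

end Vale.Agent.Lib.Helper2.P064U
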