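import Vale.Agent.Lib.P064B.Pieces
import Vale.Agent.Lib.P064B.Components
import Vale.Agent.Lib.Helper2.P064U

/-!
(D6) of the package general hosts and forests for P064, with the two inputs (D4: labelled copies
of a connected graph in a host of bounded degree, D5: a connected induced piece of a forest is a
tree) as explicit hypotheses: labelled copies of a forest in a host of maximum degree at most `D`.
-/

namespace Vale.Agent.Lib.Helper2.P064DForest
open SimpleGraph Finset

/-- The arithmetic: `n^m x^E (n-v)! ≤ n! (e² x / n)^E` if `v = m + E ≤ n` and `m ≤ E`. -/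
theorem forest_arith2 (n m E v : ℕ) (x : ℝ) (hx : 0 ≤ x) (hv : v ≤ n) (hvE : v = m + E)
    (hmE : m ≤ E) :
    (n : ℝ) ^ m * x ^ E * ((n - v).factorial : ℝ) ≤
      (n.factorial : ℝ) * (Real.exp 2 * x / (n : ℝ)) ^ E := by
  rcases Nat.eq_zero_or_pos n with hn | hn
  · subst hn
    have hv0 : v = 0 := Nat.le_zero.mp hv
    have hm0 : m = 0 := by omega
    have hE0 : E = 0 := by omega
    subst hv0 hm0 hE0
    simp
  · have hn' : (0 : ℝ) < (n : ℝ) := by exact_mod_cast hn
    have h1 : (n : ℝ) ^ v ≤ Real.exp v * (n.descFactorial v : ℝ) :=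
      Vale.Agent.Lib.Helper2.P064U.pow_le_exp_mul_descFactorial n v hv
    have h2 : ((n - v).factorial : ℝ) * (n.descFactorial v : ℝ) = (n.factorial : ℝ) := by
      exact_mod_cast Nat.factorial_mul_descFactorial hv
    have h3 : Real.exp (v : ℝ) ≤ Real.exp 2 ^ E := by
      rw [← Real.exp_nat_mul]
      apply Real.exp_le_exp.mpr
      have : (v : ℝ) ≤ 2 * (E : ℝ) := by
        have : v ≤ 2 * E := by omega
        exact_mod_cast this
      linarith
    have hf0 : (0 : ℝ) ≤ ((n - v).factorial : ℝ) := Nat.cast_nonneg _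
    have hd0 : (0 : ℝ) ≤ (n.descFactorial v : ℝ) := Nat.cast_nonneg _
    have key : (n : ℝ) ^ v * ((n - v).factorial : ℝ) ≤ (n.factorial : ℝ) * Real.exp 2 ^ E := by
      calc (n : ℝ) ^ v * ((n - v).factorial : ℝ)
          ≤ (Real.exp v * (n.descFactorial v : ℝ)) * ((n - v).factorial : ℝ) :=
            mul_le_mul_of_nonneg_right h1 hf0
        _ = Real.exp v * (n.factorial : ℝ) := by
            rw [← h2]
            ring
        _ ≤ Real.exp 2 ^ E * (n.factorial : ℝ) :=
            mul_le_mul_of_nonneg_right h3 (Nat.cast_nonneg _)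
        _ = (n.factorial : ℝ) * Real.exp 2 ^ E := by ring
    have hsplit : (n : ℝ) ^ v = (n : ℝ) ^ m * (n : ℝ) ^ E := by
      rw [hvE, pow_add]
    have hnE : (0 : ℝ) < (n : ℝ) ^ E := pow_pos hn' E
    have hrhs : (n.factorial : ℝ) * (Real.exp 2 * x / (n : ℝ)) ^ E =
        x ^ E * ((n.factorial : ℝ) * Real.exp 2 ^ E / (n : ℝ) ^ E) := by
      rw [div_pow, mul_pow]
      ring
    rw [hrhs]
    have hcore : (n : ℝ) ^ m * ((n - v).factorial : ℝ) ≤
        (n.factorial : ℝ) * Real.exp 2 ^ E / (n : ℝ) ^ E := by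
      rw [le_div_iff₀ hnE]
      calc (n : ℝ) ^ m * ((n - v).factorial : ℝ) * (n : ℝ) ^ E
          = (n : ℝ) ^ v * ((n - v).factorial : ℝ) := by
            rw [hsplit]
            ring
        _ ≤ _ := key
    calc (n : ℝ) ^ m * x ^ E * ((n - v).factorial : ℝ)
        = x ^ E * ((n : ℝ) ^ m * ((n - v).factorial : ℝ)) := by ring
      _ ≤ x ^ E * ((n.factorial : ℝ) * Real.exp 2 ^ E / (n : ℝ) ^ E) :=
          mul_le_mul_of_nonneg_left hcore (pow_nonneg hx E)

/-- D6 from D4 (`hD4`) and D5 (`hD5`). -/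
theorem forest_labelled_of {n : ℕ} (H : SimpleGraph (Fin n)) (D : ℕ) (F : SimpleGraph (Fin n))
    (hD4 : ∀ W : Finset (Fin n), (F.induce (W : Set (Fin n))).Connected →
      H.labelledCopyCount (F.induce (W : Set (Fin n))) ≤ n * D ^ (W.card - 1))
    (hD5 : ∀ W : Finset (Fin n), (F.induce (W : Set (Fin n))).Connected →
      (F.induce (W : Set (Fin n))).edgeSet.ncard + 1 = W.card) :
    (H.labelledCopyCount F : ℝ) ≤
      (n.factorial : ℝ) * (Real.exp 2 * (D : ℝ) / (n : ℝ)) ^ F.edgeSet.ncard := by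
  classical
  obtain ⟨m, W, hdisj, hconn, hcard, hsum⟩ := Vale.Agent.Lib.P064B.exists_pieces F
  have hB5 := Vale.Agent.Lib.P064B.count_of_pieces F H W hdisj
  rw [Fintype.card_fin] at hB5
  set ee : Fin m → ℕ := fun i => (F.induce (W i : Set (Fin n))).edgeSet.ncard with hee
  have hw : ∀ i, (W i).card = ee i + 1 := fun i => (hD5 (W i) (hconn i)).symm
  have hpiece : ∀ i, H.labelledCopyCount (F.induce (W i : Set (Fin n))) ≤ n * D ^ (ee i) := by
    intro i
    have h := hD4 (W i) (hconn i)
    rw [hw i, Nat.add_sub_cancel] at h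
    exact h
  have hee1 : ∀ i, 1 ≤ ee i := by
    intro i
    have := hcard i
    rw [hw i] at this
    omega
  have hvle : ∑ i, (W i).card ≤ n := by
    have h2 : (Finset.univ.biUnion W).card = ∑ i, (W i).card :=
      Finset.card_biUnion (fun i _ j _ hij => hdisj i j hij)
    rw [← h2]
    exact le_trans (Finset.card_le_univ _) (by simp)
  have hvE : ∑ i, (W i).card = m + F.edgeSet.ncard := by
    rw [← hsum]
    have : ∑ i, (W i).card = ∑ i : Fin m, (ee i + 1) := Finset.sum_congr rfl (fun i _ => hw i)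
    rw [this, Finset.sum_add_distrib]
    simp [add_comm]
  have hmE : m ≤ F.edgeSet.ncard := by
    rw [← hsum]
    calc m = ∑ _i : Fin m, 1 := by simp
      _ ≤ ∑ i : Fin m, ee i := Finset.sum_le_sum (fun i _ => hee1 i)
  have hprod : ∏ i, H.labelledCopyCount (F.induce (W i : Set (Fin n))) ≤
      n ^ m * D ^ F.edgeSet.ncard := by
    calc ∏ i, H.labelledCopyCount (F.induce (W i : Set (Fin n)))
        ≤ ∏ i : Fin m, (n * D ^ (ee i)) := Finset.prod_le_prod' (fun i _ => hpiece i)
      _ = n ^ m * D ^ F.edgeSet.ncard := by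
          rw [Finset.prod_mul_distrib, Finset.prod_const, Finset.card_univ, Fintype.card_fin,
            Finset.prod_pow_eq_pow_sum, ← hsum]
  have hnat : H.labelledCopyCount F ≤
      n ^ m * D ^ F.edgeSet.ncard * (n - ∑ i, (W i).card).factorial :=
    le_trans hB5 (Nat.mul_le_mul_right _ hprod)
  have hreal : (H.labelledCopyCount F : ℝ) ≤
      (n : ℝ) ^ m * (D : ℝ) ^ F.edgeSet.ncard * ((n - ∑ i, (W i).card).factorial : ℝ) := by
    exact_mod_cast hnat
  exact le_trans hreal
    (forest_arith2 n m F.edgeSet.ncard (∑ i, (W i).card) (D : ℝ) (Nat.cast_nonneg D) hvle hvE hmE)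

end Vale.Agent.Lib.Helper2.P064DForest
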