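import Vale.Agent.Lib.P064D.Degree
import Vale.Agent.Lib.P064D.ForestLabelled
import Vale.Agent.Lib.P064B.Host

/-!
Twins (own namespace) of D3, D7, D8 of the package general hosts and forests for P064, with the
exact interface statements.
-/

namespace Vale.Agent.Lib.Helper2.P064DTwin
open SimpleGraph Finset
open Vale.Agent.Lib.Helper7.P064M

theorem exp_two_le_eight : Real.exp 2 ≤ 8 := by
  have h2 : Real.exp 2 = Real.exp 1 * Real.exp 1 := by
    rw [← Real.exp_add]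
    norm_num
  have h1 := Real.exp_one_lt_d9
  have h0 := Real.exp_pos 1
  rw [h2]
  nlinarith

theorem cast_max_deg_le (n : ℕ) (q : ℝ) (hq0 : 0 ≤ q) :
    ((max ⌈6 * (n : ℝ) * q⌉₊ (Nat.log 2 n) : ℕ) : ℝ) ≤
      6 * (n : ℝ) * q + 1 + (Nat.log 2 n : ℝ) := by
  have h6 : 0 ≤ 6 * (n : ℝ) * q := by positivity
  have hlog : (0 : ℝ) ≤ (Nat.log 2 n : ℝ) := Nat.cast_nonneg _
  rw [Nat.cast_max]
  apply max_le
  · have := Nat.ceil_lt_add_one h6
    linarith
  · linarith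

/-- Labelled form of D7. -/
theorem forest_labelled_min {n : ℕ} (H : SimpleGraph (Fin n)) (q : ℝ) (hq0 : 0 ≤ q)
    (hyp : ∀ F : SimpleGraph (Fin n), F ≤ H →
      1 ≤ ((⊤ : SimpleGraph (Fin n)).copyCount F : ℝ) * q ^ F.edgeSet.ncard)
    (F : SimpleGraph (Fin n)) (hF : F.IsAcyclic) :
    (H.labelledCopyCount F : ℝ) ≤
      ((⊤ : SimpleGraph (Fin n)).labelledCopyCount F : ℝ) *
        (min 1 (8 * (6 * q + (1 + (Nat.log 2 n : ℝ)) / (n : ℝ)))) ^ F.edgeSet.ncard := by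
  have hle := labelled_le_desc H F
  rw [labelled_top, Fintype.card_fin, Nat.descFactorial_self]
  rw [Fintype.card_fin, Nat.descFactorial_self] at hle
  have hle' : (H.labelledCopyCount F : ℝ) ≤ (n.factorial : ℝ) := by
    exact_mod_cast hle
  by_cases h1 : 1 ≤ 8 * (6 * q + (1 + (Nat.log 2 n : ℝ)) / (n : ℝ))
  · rw [min_eq_left h1, one_pow, mul_one]
    exact hle'
  · rw [min_eq_right (le_of_not_ge h1)]
    rcases Nat.eq_zero_or_pos F.edgeSet.ncard with he | he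
    · rw [he, pow_zero, mul_one]
      exact hle'
    · have hn : 0 < n := by
        have hne : F.edgeSet.Nonempty := by
          by_contra hemp
          rw [Set.not_nonempty_iff_eq_empty] at hemp
          rw [hemp, Set.ncard_empty] at he
          exact lt_irrefl 0 he
        obtain ⟨e, _⟩ := hne
        induction e using Sym2.ind with
        | _ a b => exact Fin.pos a
      have hn' : (0 : ℝ) < (n : ℝ) := by exact_mod_cast hn
      have hdeg := fun v => Vale.Agent.Lib.P064D.degree_le_of_hyp H q hq0 hyp v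
      have hfl := Vale.Agent.Lib.P064D.forest_labelled H _ hdeg F hF
      have hDle := cast_max_deg_le n q hq0
      have hD0 : (0 : ℝ) ≤ ((max ⌈6 * (n : ℝ) * q⌉₊ (Nat.log 2 n) : ℕ) : ℝ) := Nat.cast_nonneg _
      have hx : Real.exp 2 * ((max ⌈6 * (n : ℝ) * q⌉₊ (Nat.log 2 n) : ℕ) : ℝ) / (n : ℝ) ≤
          8 * (6 * q + (1 + (Nat.log 2 n : ℝ)) / (n : ℝ)) := by
        rw [div_le_iff₀ hn']
        have he8 := exp_two_le_eight
        calc Real.exp 2 * ((max ⌈6 * (n : ℝ) * q⌉₊ (Nat.log 2 n) : ℕ) : ℝ)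
            ≤ 8 * ((max ⌈6 * (n : ℝ) * q⌉₊ (Nat.log 2 n) : ℕ) : ℝ) :=
              mul_le_mul_of_nonneg_right he8 hD0
          _ ≤ 8 * (6 * (n : ℝ) * q + 1 + (Nat.log 2 n : ℝ)) := by linarith
          _ = 8 * (6 * q + (1 + (Nat.log 2 n : ℝ)) / (n : ℝ)) * (n : ℝ) := by
              field_simp
              ring
      have hx0 : 0 ≤ Real.exp 2 * ((max ⌈6 * (n : ℝ) * q⌉₊ (Nat.log 2 n) : ℕ) : ℝ) / (n : ℝ) := by
        positivity
      exact le_trans hfl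
        (mul_le_mul_of_nonneg_left (pow_le_pow_left₀ hx0 hx _) (Nat.cast_nonneg _))

/-- D7: counting inequality for forests `F` in an arbitrary host. -/
theorem forest_copies {n : ℕ} (H : SimpleGraph (Fin n)) (q : ℝ) (hq0 : 0 ≤ q)
    (hyp : ∀ F : SimpleGraph (Fin n), F ≤ H →
      1 ≤ ((⊤ : SimpleGraph (Fin n)).copyCount F : ℝ) * q ^ F.edgeSet.ncard)
    (F : SimpleGraph (Fin n)) (hF : F.IsAcyclic) :
    (H.copyCount F : ℝ) ≤
      ((⊤ : SimpleGraph (Fin n)).copyCount F : ℝ) *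
        (min 1 (8 * (6 * q + (1 + (Nat.log 2 n : ℝ)) / (n : ℝ)))) ^ F.edgeSet.ncard :=
  copies_of_labelled H ⊤ F _ (forest_labelled_min H q hq0 hyp F hF)

/-- D8: threshold form for forest hosts. -/
theorem forest_threshold {n : ℕ} (H : SimpleGraph (Fin n)) (hH : H.IsAcyclic) :
    fracExpThreshold H ≤ 96 * expThreshold H + 8 * (1 + (Nat.log 2 n : ℝ)) / (n : ℝ) := by
  have key : ∀ q ∈ {p : ℝ | 0 ≤ p ∧ p ≤ 1 ∧
      ∀ F : SimpleGraph (Fin n), F ≤ H → 1 / 2 ≤ expCopies F p},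
      fracExpThreshold H ≤ 96 * q + 8 * (1 + (Nat.log 2 n : ℝ)) / (n : ℝ) := by
    intro q hq
    obtain ⟨hq0, -, hq2⟩ := hq
    have hq'0 : 0 ≤ min 1 (2 * q) := le_min zero_le_one (by positivity)
    have hunit := hyp_double H q hq0 hq2
    have hc0 : (0 : ℝ) ≤ (1 + (Nat.log 2 n : ℝ)) / (n : ℝ) := by positivity
    have hmem : min 1 (8 * (6 * min 1 (2 * q) + (1 + (Nat.log 2 n : ℝ)) / (n : ℝ))) ∈
        {p : ℝ | 0 ≤ p ∧ p ≤ 1 ∧
          ∀ F : SimpleGraph (Fin n), F ≤ H → (H.copyCount F : ℝ) / 2 ≤ expCopies F p} := by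
      refine ⟨le_min zero_le_one (by positivity), min_le_left _ _, fun F hFH => ?_⟩
      have h1 := forest_copies H (min 1 (2 * q)) hq'0 hunit F (hH.anti hFH)
      have h0 : (0 : ℝ) ≤ (H.copyCount F : ℝ) := Nat.cast_nonneg _
      unfold expCopies
      linarith
    have h2 := csInf_le (bddBelow_frac H) hmem
    have h3 : min 1 (8 * (6 * min 1 (2 * q) + (1 + (Nat.log 2 n : ℝ)) / (n : ℝ))) ≤
        96 * q + 8 * (1 + (Nat.log 2 n : ℝ)) / (n : ℝ) := by
      have h4 : min 1 (2 * q) ≤ 2 * q := min_le_right _ _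
      calc min 1 (8 * (6 * min 1 (2 * q) + (1 + (Nat.log 2 n : ℝ)) / (n : ℝ)))
          ≤ 8 * (6 * min 1 (2 * q) + (1 + (Nat.log 2 n : ℝ)) / (n : ℝ)) := min_le_right _ _
        _ ≤ 8 * (6 * (2 * q) + (1 + (Nat.log 2 n : ℝ)) / (n : ℝ)) := by linarith
        _ = 96 * q + 8 * (1 + (Nat.log 2 n : ℝ)) / (n : ℝ) := by ring
    exact le_trans h2 h3
  have h5 : (fracExpThreshold H - 8 * (1 + (Nat.log 2 n : ℝ)) / (n : ℝ)) / 96 ≤
      expThreshold H := by
    refine le_csInf ⟨1, one_mem_exp H⟩ (fun q hq => ?_)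
    have := key q hq
    linarith
  linarith

/-- D3: threshold form for every host. -/
theorem general_threshold {n : ℕ} (H : SimpleGraph (Fin n)) :
    fracExpThreshold H ≤
      178 * (12 * (n : ℝ) * expThreshold H + (Nat.log 2 n : ℝ) + 1) * expThreshold H := by
  have hL0 : (0 : ℝ) ≤ (Nat.log 2 n : ℝ) := Nat.cast_nonneg _
  have hn0 : (0 : ℝ) ≤ (n : ℝ) := Nat.cast_nonneg n
  have key : ∀ q ∈ {p : ℝ | 0 ≤ p ∧ p ≤ 1 ∧
      ∀ F : SimpleGraph (Fin n), F ≤ H → 1 / 2 ≤ expCopies F p},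
      fracExpThreshold H ≤ 178 * (12 * (n : ℝ) * q + (Nat.log 2 n : ℝ) + 1) * q := by
    intro q hq
    obtain ⟨hq0, -, hq2⟩ := hq
    have hq'0 : 0 ≤ min 1 (2 * q) := le_min zero_le_one (by positivity)
    have hq'2 : min 1 (2 * q) ≤ 2 * q := min_le_right _ _
    have hunit := hyp_double H q hq0 hq2
    have hdeg := fun v => Vale.Agent.Lib.P064D.degree_le_of_hyp H (min 1 (2 * q)) hq'0 hunit v
    have hDle := cast_max_deg_le n (min 1 (2 * q)) hq'0
    have hD0 : (0 : ℝ) ≤ ((max ⌈6 * (n : ℝ) * min 1 (2 * q)⌉₊ (Nat.log 2 n) : ℕ) : ℝ) :=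
      Nat.cast_nonneg _
    have hmem : min 1 (89 * ((max ⌈6 * (n : ℝ) * min 1 (2 * q)⌉₊ (Nat.log 2 n) : ℕ) : ℝ)
        * min 1 (2 * q)) ∈ {p : ℝ | 0 ≤ p ∧ p ≤ 1 ∧
          ∀ F : SimpleGraph (Fin n), F ≤ H → (H.copyCount F : ℝ) / 2 ≤ expCopies F p} := by
      refine ⟨le_min zero_le_one (by positivity), min_le_left _ _, fun F _ => ?_⟩
      have h1 := Vale.Agent.Lib.P064B.bounded_degree_copies H _ hdeg (min 1 (2 * q)) hq'0 hunit F
      have h0 : (0 : ℝ) ≤ (H.copyCount F : ℝ) := Nat.cast_nonneg _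
      unfold expCopies
      linarith
    have h2 := le_trans (csInf_le (bddBelow_frac H) hmem) (min_le_right _ _)
    have hDle2 : ((max ⌈6 * (n : ℝ) * min 1 (2 * q)⌉₊ (Nat.log 2 n) : ℕ) : ℝ) ≤
        12 * (n : ℝ) * q + (Nat.log 2 n : ℝ) + 1 := by
      have : 6 * (n : ℝ) * min 1 (2 * q) ≤ 6 * (n : ℝ) * (2 * q) :=
        mul_le_mul_of_nonneg_left hq'2 (by positivity)
      linarith
    calc fracExpThreshold H
        ≤ 89 * ((max ⌈6 * (n : ℝ) * min 1 (2 * q)⌉₊ (Nat.log 2 n) : ℕ) : ℝ) * min 1 (2 * q) := h2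
      _ ≤ 89 * (12 * (n : ℝ) * q + (Nat.log 2 n : ℝ) + 1) * (2 * q) :=
          mul_le_mul (mul_le_mul_of_nonneg_left hDle2 (by norm_num)) hq'2 hq'0 (by positivity)
      _ = 178 * (12 * (n : ℝ) * q + (Nat.log 2 n : ℝ) + 1) * q := by ring
  have hmono : ∀ a b : ℝ, 0 ≤ a → a ≤ b →
      178 * (12 * (n : ℝ) * a + (Nat.log 2 n : ℝ) + 1) * a ≤
        178 * (12 * (n : ℝ) * b + (Nat.log 2 n : ℝ) + 1) * b := by
    intro a b ha hab
    have hb : 0 ≤ b := le_trans ha hab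
    have h1 : 12 * (n : ℝ) * a + (Nat.log 2 n : ℝ) + 1 ≤ 12 * (n : ℝ) * b + (Nat.log 2 n : ℝ) + 1 := by
      have := mul_le_mul_of_nonneg_left hab (by positivity : (0 : ℝ) ≤ 12 * (n : ℝ))
      linarith
    have h2 : (0 : ℝ) ≤ 12 * (n : ℝ) * b + (Nat.log 2 n : ℝ) + 1 := by positivity
    have h3 := mul_le_mul h1 hab ha h2
    linarith
  have hall : ∀ ε : ℝ, 0 < ε → fracExpThreshold H ≤
      178 * (12 * (n : ℝ) * (expThreshold H + ε) + (Nat.log 2 n : ℝ) + 1) * (expThreshold H + ε) := by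
    intro ε hε
    have hlt : sInf {p : ℝ | 0 ≤ p ∧ p ≤ 1 ∧
        ∀ F : SimpleGraph (Fin n), F ≤ H → 1 / 2 ≤ expCopies F p} < expThreshold H + ε := by
      have : expThreshold H = sInf {p : ℝ | 0 ≤ p ∧ p ≤ 1 ∧
        ∀ F : SimpleGraph (Fin n), F ≤ H → 1 / 2 ≤ expCopies F p} := rfl
      linarith
    obtain ⟨q, hqS, hqlt⟩ := exists_lt_of_csInf_lt ⟨1, one_mem_exp H⟩ hlt
    exact le_trans (key q hqS) (hmono q (expThreshold H + ε) hqS.1 hqlt.le)
  have hcont : Continuous (fun ε : ℝ =>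
      178 * (12 * (n : ℝ) * (expThreshold H + ε) + (Nat.log 2 n : ℝ) + 1) * (expThreshold H + ε)) := by
    fun_prop
  have htend : Filter.Tendsto (fun ε : ℝ =>
      178 * (12 * (n : ℝ) * (expThreshold H + ε) + (Nat.log 2 n : ℝ) + 1) * (expThreshold H + ε))
      (nhdsWithin 0 (Set.Ioi 0))
      (nhds (178 * (12 * (n : ℝ) * expThreshold H + (Nat.log 2 n : ℝ) + 1) * expThreshold H)) := by
    have h1 := hcont.tendsto 0
    simp only [add_zero] at h1
    exact h1.mono_left nhdsWithin_le_nhds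
  exact ge_of_tendsto htend (eventually_nhdsWithin_of_forall hall)

end Vale.Agent.Lib.Helper2.P064DTwin
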