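import Vale.Agent.Lib.P034G.General
import Vale.Agent.Lib.Helper2.P034G
import Vale.Agent.Lib.Helper2.P064DTwin

/-!
P034 for the families generated by the copies of a forest `H` on `Fin n`: a fractional cover of
cost at most `1/2` at `p` gives a cover of cost at most `1/2` at `p / 104`, provided that
`p ≥ 104 (1 + ⌊log₂ n⌋) / n`.

`family_of_count_at` is the averaging argument of `Vale.Agent.Lib.P034G.family_of_count` with the
count hypothesis used at the single density `p / L`.
-/

namespace Vale.Agent.Lib.Helper2.P034Forest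

open Finset
open Vale.Agent.Results.P034.NestedIntersections (Covers cost IsFracCover fracCost)
open Vale.Agent.Lib.Helper2.P034G (pullGraph pullGraph_le pullGraph_ncard copyOf copyOf_apply)

open scoped Classical in
/-- The averaging argument with the count hypothesis at the single density `p / L`. -/
theorem family_of_count_at {n : ℕ} (H : SimpleGraph (Fin n)) (L : ℝ) (hL : 0 < L)
    (F : Finset (Finset (Sym2 (Fin n))))
    (hF1 : ∀ W ∈ F, ∃ σ : Equiv.Perm (Fin n),
      (H.map σ.toEmbedding).edgeSet ⊆ (W : Set (Sym2 (Fin n))))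
    (hF2 : ∀ σ : Equiv.Perm (Fin n), ∃ W ∈ F,
      (W : Set (Sym2 (Fin n))) = (H.map σ.toEmbedding).edgeSet)
    (p : ℝ) (hp0 : 0 ≤ p)
    (hcount : (∀ F0 : SimpleGraph (Fin n), F0 ≤ H →
        1 / 2 ≤ ((⊤ : SimpleGraph (Fin n)).copyCount F0 : ℝ) * (p / L) ^ F0.edgeSet.ncard) →
      ∀ S : Finset (Sym2 (Fin n)),
        (((Finset.univ : Finset (Equiv.Perm (Fin n))).filter (fun σ =>
          (S : Set (Sym2 (Fin n))) ⊆ (H.map σ.toEmbedding).edgeSet)).card : ℝ)
        ≤ (n.factorial : ℝ) * p ^ S.card)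
    (g : Finset (Sym2 (Fin n)) → ℝ) (hg : IsFracCover g F)
    (hcost : fracCost p g ≤ 1 / 2) :
    ∃ G : Finset (Finset (Sym2 (Fin n))), Covers G F ∧ cost (p / L) G ≤ 1 / 2 := by
  set q : ℝ := p / L with hq
  have hq0 : 0 ≤ q := by positivity
  by_cases hcase : ∀ F0 : SimpleGraph (Fin n), F0 ≤ H →
      1 / 2 ≤ ((⊤ : SimpleGraph (Fin n)).copyCount F0 : ℝ) * q ^ F0.edgeSet.ncard
  · -- averaging over all permutations: contradiction
    exfalso
    choose Wσ hWσ hWσeq using hF2
    have h1 : ∀ σ : Equiv.Perm (Fin n), (1 : ℝ) ≤ ∑ S ∈ (Wσ σ).powerset, g S :=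
      fun σ => hg.2 (Wσ σ) (hWσ σ)
    have h2 : ∀ σ : Equiv.Perm (Fin n),
        ∑ S ∈ (Wσ σ).powerset, g S
          = ∑ S : Finset (Sym2 (Fin n)),
              if (S : Set (Sym2 (Fin n))) ⊆ (H.map σ.toEmbedding).edgeSet then g S else 0 := by
      intro σ
      rw [← Finset.sum_filter]
      apply Finset.sum_congr _ (fun _ _ => rfl)
      ext S
      simp only [Finset.mem_powerset, Finset.mem_filter, Finset.mem_univ, true_and]
      rw [← hWσeq σ]
      exact Finset.coe_subset.symm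
    have h3 : ((Finset.univ : Finset (Equiv.Perm (Fin n))).card : ℝ)
        ≤ ∑ σ : Equiv.Perm (Fin n), ∑ S : Finset (Sym2 (Fin n)),
            if (S : Set (Sym2 (Fin n))) ⊆ (H.map σ.toEmbedding).edgeSet then g S else 0 := by
      rw [Finset.card_eq_sum_ones, Nat.cast_sum]
      apply Finset.sum_le_sum
      intro σ _
      rw [← h2 σ]
      simpa using h1 σ
    rw [Finset.sum_comm] at h3
    have h4 : ∀ S : Finset (Sym2 (Fin n)),
        (∑ σ : Equiv.Perm (Fin n),
          if (S : Set (Sym2 (Fin n))) ⊆ (H.map σ.toEmbedding).edgeSet then g S else 0)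
          ≤ (n.factorial : ℝ) * (g S * p ^ S.card) := by
      intro S
      rw [← Finset.sum_filter, Finset.sum_const, nsmul_eq_mul]
      have h5 := hcount hcase S
      have hg0 : 0 ≤ g S := (hg.1 S).1
      calc ((Finset.univ.filter (fun σ : Equiv.Perm (Fin n) =>
              (S : Set (Sym2 (Fin n))) ⊆ (H.map σ.toEmbedding).edgeSet)).card : ℝ) * g S
          ≤ ((n.factorial : ℝ) * p ^ S.card) * g S := mul_le_mul_of_nonneg_right h5 hg0
        _ = (n.factorial : ℝ) * (g S * p ^ S.card) := by ring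
    have h7 : ((Finset.univ : Finset (Equiv.Perm (Fin n))).card : ℝ)
        ≤ (n.factorial : ℝ) * fracCost p g := by
      refine le_trans h3 ?_
      unfold fracCost
      rw [Finset.mul_sum]
      exact Finset.sum_le_sum (fun S _ => h4 S)
    rw [Finset.card_univ, Fintype.card_perm, Fintype.card_fin] at h7
    have hpos : (0 : ℝ) < (n.factorial : ℝ) := by exact_mod_cast n.factorial_pos
    nlinarith
  · -- some `F0 ≤ H` has few expected copies: its copies form a cheap cover
    simp only [not_forall, not_le] at hcase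
    obtain ⟨F0, hF0, hlt⟩ := hcase
    obtain ⟨G, hG1, hG2, hG3⟩ := Vale.Agent.Lib.P034G.copies_cover F0
    refine ⟨G, ?_, ?_⟩
    · intro W hW
      obtain ⟨σ, hσ⟩ := hF1 W hW
      obtain ⟨S, hS, hSeq⟩ := hG1 σ
      refine ⟨S, hS, ?_⟩
      rw [← Finset.coe_subset, hSeq]
      refine subset_trans ?_ hσ
      exact SimpleGraph.edgeSet_subset_edgeSet.mpr (SimpleGraph.map_monotone _ hF0)
    · unfold cost
      rw [Finset.sum_congr rfl (fun S hS => by rw [hG2 S hS]), Finset.sum_const, nsmul_eq_mul]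
      have hq' : 0 ≤ q ^ F0.edgeSet.ncard := pow_nonneg hq0 _
      have hc : (G.card : ℝ) ≤ ((⊤ : SimpleGraph (Fin n)).copyCount F0 : ℝ) := by
        exact_mod_cast hG3
      nlinarith

open scoped Classical in
/-- The permutations `σ` with `S ⊆ E(σ H)` inject into the labelled copies of the pull-back of
`S` along any fixed permutation. -/
theorem perm_filter_le_labelled {n : ℕ} (H : SimpleGraph (Fin n)) (S : Finset (Sym2 (Fin n)))
    (σ0 : Equiv.Perm (Fin n)) :
    ((Finset.univ : Finset (Equiv.Perm (Fin n))).filter (fun σ =>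
        (S : Set (Sym2 (Fin n))) ⊆ (H.map σ.toEmbedding).edgeSet)).card ≤
      H.labelledCopyCount (pullGraph S σ0) := by
  set T := (Finset.univ : Finset (Equiv.Perm (Fin n))).filter (fun σ =>
        (S : Set (Sym2 (Fin n))) ⊆ (H.map σ.toEmbedding).edgeSet) with hT
  have hmemT : ∀ σ : T, (S : Set (Sym2 (Fin n))) ⊆ (H.map σ.1.toEmbedding).edgeSet := by
    intro σ
    exact (Finset.mem_filter.mp σ.2).2
  rw [Vale.Agent.Lib.Helper7.P064M.labelled_eq_natCard, ← Nat.card_eq_finsetCard T]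
  have : Finite (SimpleGraph.Copy (pullGraph S σ0) H) :=
    Finite.of_injective (fun f : SimpleGraph.Copy (pullGraph S σ0) H => (f : Fin n → Fin n))
      (fun f g hfg => by
        ext a
        exact congrArg Fin.val (congrFun hfg a))
  refine Nat.card_le_card_of_injective (fun σ : T => copyOf H S σ0 σ.1 (hmemT σ)) ?_
  intro σ τ hστ
  apply Subtype.ext
  have h1 : ∀ a, σ.1.symm (σ0 a) = τ.1.symm (σ0 a) := by
    intro a
    have := congrArg (fun f : SimpleGraph.Copy (pullGraph S σ0) H => f a) hστ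
    simpa [copyOf_apply] using this
  have h2 : σ.1.symm = τ.1.symm := by
    ext b
    have := h1 (σ0.symm b)
    simpa using congrArg Fin.val this
  have h3 := congrArg Equiv.symm h2
  simpa using h3

open scoped Classical in
/-- The permutation count for a forest `H`, at densities `p ≥ 104 (1 + ⌊log₂ n⌋) / n`. -/
theorem forest_perm_count {n : ℕ} (H : SimpleGraph (Fin n)) (hH : H.IsAcyclic) (p : ℝ)
    (hp : 104 * (1 + (Nat.log 2 n : ℝ)) / (n : ℝ) ≤ p)
    (hyp : ∀ F0 : SimpleGraph (Fin n), F0 ≤ H →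
      1 / 2 ≤ ((⊤ : SimpleGraph (Fin n)).copyCount F0 : ℝ) * (p / 104) ^ F0.edgeSet.ncard)
    (S : Finset (Sym2 (Fin n))) :
    (((Finset.univ : Finset (Equiv.Perm (Fin n))).filter (fun σ =>
        (S : Set (Sym2 (Fin n))) ⊆ (H.map σ.toEmbedding).edgeSet)).card : ℝ)
      ≤ (n.factorial : ℝ) * p ^ S.card := by
  have hc0 : (0 : ℝ) ≤ (1 + (Nat.log 2 n : ℝ)) / (n : ℝ) := by positivity
  have hcp : 104 * ((1 + (Nat.log 2 n : ℝ)) / (n : ℝ)) ≤ p := by
    rw [← mul_div_assoc]
    exact hp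
  have hp0 : 0 ≤ p := by linarith
  set T := (Finset.univ : Finset (Equiv.Perm (Fin n))).filter (fun σ =>
        (S : Set (Sym2 (Fin n))) ⊆ (H.map σ.toEmbedding).edgeSet) with hT
  rcases T.eq_empty_or_nonempty with hemp | ⟨σ0, hσ0⟩
  · rw [hemp, Finset.card_empty, Nat.cast_zero]
    positivity
  · have h0 : (S : Set (Sym2 (Fin n))) ⊆ (H.map σ0.toEmbedding).edgeSet :=
      (Finset.mem_filter.mp hσ0).2
    have hle : pullGraph S σ0 ≤ H := pullGraph_le H S σ0 h0
    have hnc : (pullGraph S σ0).edgeSet.ncard = S.card := pullGraph_ncard H S σ0 h0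
    have hcard : T.card ≤ H.labelledCopyCount (pullGraph S σ0) :=
      perm_filter_le_labelled H S σ0
    have hq0 : 0 ≤ p / 104 := by positivity
    have hq'0 : 0 ≤ min 1 (2 * (p / 104)) := le_min zero_le_one (by positivity)
    have hunit := Vale.Agent.Lib.Helper7.P064M.hyp_double H (p / 104) hq0 hyp
    have hlab := Vale.Agent.Lib.Helper2.P064DTwin.forest_labelled_min H (min 1 (2 * (p / 104)))
      hq'0 hunit (pullGraph S σ0) (hH.anti hle)
    rw [Vale.Agent.Lib.Helper7.P064M.labelled_top, Fintype.card_fin, Nat.descFactorial_self,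
      hnc] at hlab
    have hx : min 1 (8 * (6 * min 1 (2 * (p / 104)) + (1 + (Nat.log 2 n : ℝ)) / (n : ℝ))) ≤ p := by
      have h1 : min 1 (2 * (p / 104)) ≤ 2 * (p / 104) := min_le_right _ _
      calc min 1 (8 * (6 * min 1 (2 * (p / 104)) + (1 + (Nat.log 2 n : ℝ)) / (n : ℝ)))
          ≤ 8 * (6 * min 1 (2 * (p / 104)) + (1 + (Nat.log 2 n : ℝ)) / (n : ℝ)) :=
            min_le_right _ _
        _ ≤ p := by linarith
    have hx0 : 0 ≤ min 1 (8 * (6 * min 1 (2 * (p / 104)) + (1 + (Nat.log 2 n : ℝ)) / (n : ℝ))) :=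
      le_min zero_le_one (by positivity)
    calc (T.card : ℝ) ≤ (H.labelledCopyCount (pullGraph S σ0) : ℝ) := by exact_mod_cast hcard
      _ ≤ (n.factorial : ℝ) *
          (min 1 (8 * (6 * min 1 (2 * (p / 104)) + (1 + (Nat.log 2 n : ℝ)) / (n : ℝ)))) ^ S.card :=
          hlab
      _ ≤ (n.factorial : ℝ) * p ^ S.card :=
          mul_le_mul_of_nonneg_left (pow_le_pow_left₀ hx0 hx _) (Nat.cast_nonneg _)

/-- Forest families: a fractional cover of cost at most `1/2` at `p ≥ 104 (1 + ⌊log₂ n⌋) / n`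
gives a cover of cost at most `1/2` at `p / 104`. -/
theorem forest_family {n : ℕ} (H : SimpleGraph (Fin n)) (hH : H.IsAcyclic)
    (F : Finset (Finset (Sym2 (Fin n))))
    (hF1 : ∀ W ∈ F, ∃ σ : Equiv.Perm (Fin n),
      (H.map σ.toEmbedding).edgeSet ⊆ (W : Set (Sym2 (Fin n))))
    (hF2 : ∀ σ : Equiv.Perm (Fin n), ∃ W ∈ F,
      (W : Set (Sym2 (Fin n))) = (H.map σ.toEmbedding).edgeSet)
    (p : ℝ) (hp : 104 * (1 + (Nat.log 2 n : ℝ)) / (n : ℝ) ≤ p)
    (g : Finset (Sym2 (Fin n)) → ℝ) (hg : IsFracCover g F)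
    (hcost : fracCost p g ≤ 1 / 2) :
    ∃ G : Finset (Finset (Sym2 (Fin n))), Covers G F ∧ cost (p / 104) G ≤ 1 / 2 := by
  have hc0 : (0 : ℝ) ≤ 104 * (1 + (Nat.log 2 n : ℝ)) / (n : ℝ) := by positivity
  exact family_of_count_at H 104 (by norm_num) F hF1 hF2 p (le_trans hc0 hp)
    (fun hyp S => by
      classical
      exact forest_perm_count H hH p hp hyp S) g hg hcost

end Vale.Agent.Lib.Helper2.P034Forest
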