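import Vale.Agent.Lib.Helper7.P064G

/-!
(B4) of the bounded-degree package for P064, with the two inputs (B2: copies through a vertex,
B3: packings) as explicit hypotheses: labelled copies of a piece `P` in a host `H`.

A maximal family `M` of pairwise vertex-disjoint copies of `P` in `H` meets every copy of `P`,
so the number of copies is at most `|M| * |U| * (number of copies through a vertex)`.
-/

namespace Vale.Agent.Lib.Helper2.P064BPiece
open SimpleGraph Finset

/-- B4 from B2 (`hB2`) and B3 (`hB3`). -/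
theorem piece_le_of {U : Type} [Fintype U] [Nonempty U] {n : ℕ} (P : SimpleGraph U)
    (H : SimpleGraph (Fin n)) (D : ℕ) (q : ℝ)
    (hB2 : ∀ x : Fin n,
      Nat.card {G' : H.Subgraph // Nonempty (P ≃g G'.coe) ∧ x ∈ G'.verts} ≤
        Fintype.card U * D ^ (Fintype.card U - 1))
    (hB3 : ∀ M : Finset H.Subgraph, (∀ G' ∈ M, Nonempty (P ≃g G'.coe)) →
      (∀ G₁ ∈ M, ∀ G₂ ∈ M, G₁ ≠ G₂ → Disjoint G₁.verts G₂.verts) →
      (M.card : ℝ) ≤ 3 * ((⊤ : SimpleGraph (Fin n)).copyCount P : ℝ) * q ^ P.edgeSet.ncard) :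
    (H.labelledCopyCount P : ℝ) ≤
      3 * (Fintype.card U : ℝ) ^ 2 * (D : ℝ) ^ (Fintype.card U - 1) *
        (n.descFactorial (Fintype.card U) : ℝ) * q ^ P.edgeSet.ncard := by
  classical
  set 𝒞 : Finset H.Subgraph := Finset.univ.filter (fun G' => Nonempty (P ≃g G'.coe)) with h𝒞
  have hcc : H.copyCount P = 𝒞.card := by
    unfold SimpleGraph.copyCount
    rw [← Nat.card_eq_finsetCard, ← Nat.card_eq_finsetCard]
    exact Nat.card_congr (Equiv.subtypeEquivRight (fun G' => by
      simp only [h𝒞, Finset.mem_filter, Finset.mem_univ, true_and]))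
  set c := Fintype.card U with hc
  -- a maximal family of pairwise vertex-disjoint copies
  let good : Finset H.Subgraph → Prop := fun M =>
    (∀ G' ∈ M, Nonempty (P ≃g G'.coe)) ∧
      ∀ G₁ ∈ M, ∀ G₂ ∈ M, G₁ ≠ G₂ → Disjoint G₁.verts G₂.verts
  have hgood0 : good ∅ := by
    refine ⟨?_, ?_⟩
    · intro G' hG'
      exact absurd hG' (Finset.notMem_empty _)
    · intro G₁ h1
      exact absurd h1 (Finset.notMem_empty _)
  obtain ⟨M, hMmem, hMmax⟩ := Finset.exists_max_image
    ((Finset.univ : Finset (Finset H.Subgraph)).filter good) Finset.card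
    ⟨∅, Finset.mem_filter.mpr ⟨Finset.mem_univ _, hgood0⟩⟩
  have hMgood : good M := (Finset.mem_filter.mp hMmem).2
  have hmeet : ∀ G' ∈ 𝒞, ∃ G ∈ M, ¬ Disjoint G.verts G'.verts := by
    intro G' hG'
    by_contra hcon
    have hcon' : ∀ G ∈ M, Disjoint G.verts G'.verts := by
      intro G hG
      by_contra hnd
      exact hcon ⟨G, hG, hnd⟩
    have hG'iso : Nonempty (P ≃g G'.coe) := (Finset.mem_filter.mp hG').2
    have hne : G'.verts.Nonempty := by
      obtain ⟨φ⟩ := hG'iso
      exact ⟨(φ (Classical.arbitrary U)).1, (φ (Classical.arbitrary U)).2⟩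
    have hnotin : G' ∉ M := by
      intro hin
      obtain ⟨v, hv⟩ := hne
      exact Set.disjoint_left.mp (hcon' G' hin) hv hv
    have hgood' : good (insert G' M) := by
      refine ⟨?_, ?_⟩
      · intro G hG
        rcases Finset.mem_insert.mp hG with e | m
        · rw [e]
          exact hG'iso
        · exact hMgood.1 G m
      · intro G₁ h1 G₂ h2 hne12
        rcases Finset.mem_insert.mp h1 with e1 | m1
        · rcases Finset.mem_insert.mp h2 with e2 | m2
          · exact absurd (e1.trans e2.symm) hne12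
          · rw [e1]
            exact (hcon' G₂ m2).symm
        · rcases Finset.mem_insert.mp h2 with e2 | m2
          · rw [e2]
            exact hcon' G₁ m1
          · exact hMgood.2 G₁ m1 G₂ m2 hne12
    have hle := hMmax (insert G' M) (Finset.mem_filter.mpr ⟨Finset.mem_univ _, hgood'⟩)
    rw [Finset.card_insert_of_notMem hnotin] at hle
    omega
  have hthrough : ∀ x : Fin n, (𝒞.filter (fun G' => x ∈ G'.verts)).card ≤ c * D ^ (c - 1) := by
    intro x
    have h1 : (𝒞.filter (fun G' => x ∈ G'.verts)).card =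
        Nat.card {G' : H.Subgraph // Nonempty (P ≃g G'.coe) ∧ x ∈ G'.verts} := by
      rw [← Nat.card_eq_finsetCard]
      exact Nat.card_congr (Equiv.subtypeEquivRight (fun G' => by
        simp only [h𝒞, Finset.mem_filter, Finset.mem_univ, true_and]))
    rw [h1]
    exact hB2 x
  have hverts : ∀ G ∈ M, G.verts.toFinset.card = c := by
    intro G hG
    obtain ⟨φ⟩ := hMgood.1 G hG
    rw [Set.toFinset_card]
    exact Fintype.card_congr φ.toEquiv.symm
  have hsub : 𝒞 ⊆ M.biUnion (fun G => G.verts.toFinset.biUnion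
      (fun x => 𝒞.filter (fun G' => x ∈ G'.verts))) := by
    intro G' hG'
    obtain ⟨G, hG, hnd⟩ := hmeet G' hG'
    obtain ⟨x, hxG, hxG'⟩ := Set.not_disjoint_iff.mp hnd
    rw [Finset.mem_biUnion]
    refine ⟨G, hG, ?_⟩
    rw [Finset.mem_biUnion]
    exact ⟨x, Set.mem_toFinset.mpr hxG, Finset.mem_filter.mpr ⟨hG', hxG'⟩⟩
  have hcount : 𝒞.card ≤ M.card * (c * (c * D ^ (c - 1))) := by
    calc 𝒞.card ≤ (M.biUnion (fun G => G.verts.toFinset.biUnion
          (fun x => 𝒞.filter (fun G' => x ∈ G'.verts)))).card := Finset.card_le_card hsub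
      _ ≤ ∑ G ∈ M, (G.verts.toFinset.biUnion
          (fun x => 𝒞.filter (fun G' => x ∈ G'.verts))).card := Finset.card_biUnion_le
      _ ≤ ∑ _G ∈ M, (c * (c * D ^ (c - 1))) := Finset.sum_le_sum (fun G hG => by
          calc (G.verts.toFinset.biUnion (fun x => 𝒞.filter (fun G' => x ∈ G'.verts))).card
              ≤ ∑ x ∈ G.verts.toFinset, (𝒞.filter (fun G' => x ∈ G'.verts)).card :=
                Finset.card_biUnion_le
            _ ≤ ∑ _x ∈ G.verts.toFinset, c * D ^ (c - 1) :=
                Finset.sum_le_sum (fun x _ => hthrough x)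
            _ = c * (c * D ^ (c - 1)) := by rw [Finset.sum_const, hverts G hG, smul_eq_mul])
      _ = M.card * (c * (c * D ^ (c - 1))) := by rw [Finset.sum_const, smul_eq_mul]
  have hlabH := Vale.Agent.Lib.Helper7.P064M.labelled_eq_copyCount_mul_aut H P
  have hlabT := Vale.Agent.Lib.Helper7.P064M.labelled_eq_copyCount_mul_aut
    (⊤ : SimpleGraph (Fin n)) P
  have htop := Vale.Agent.Lib.Helper7.P064M.labelled_top (V := Fin n) P
  rw [Fintype.card_fin] at htop
  have hM3 := hB3 M hMgood.1 hMgood.2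
  set A := Nat.card (P ≃g P) with hA
  have h1 : (H.labelledCopyCount P : ℝ) ≤
      (M.card : ℝ) * ((c : ℝ) * ((c : ℝ) * (D : ℝ) ^ (c - 1))) * (A : ℝ) := by
    rw [hlabH, hcc]
    have h0 : 𝒞.card * A ≤ M.card * (c * (c * D ^ (c - 1))) * A :=
      Nat.mul_le_mul_right _ hcount
    exact_mod_cast h0
  have h2 : (n.descFactorial c : ℝ) =
      ((⊤ : SimpleGraph (Fin n)).copyCount P : ℝ) * (A : ℝ) := by
    rw [← htop, hlabT]
    push_cast
    ring
  calc (H.labelledCopyCount P : ℝ)
      ≤ (M.card : ℝ) * ((c : ℝ) * ((c : ℝ) * (D : ℝ) ^ (c - 1))) * (A : ℝ) := h1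
    _ ≤ (3 * ((⊤ : SimpleGraph (Fin n)).copyCount P : ℝ) * q ^ P.edgeSet.ncard) *
          ((c : ℝ) * ((c : ℝ) * (D : ℝ) ^ (c - 1))) * (A : ℝ) := by
        gcongr
    _ = 3 * (c : ℝ) ^ 2 * (D : ℝ) ^ (c - 1) * (n.descFactorial c : ℝ) *
          q ^ P.edgeSet.ncard := by
        rw [h2]
        ring

end Vale.Agent.Lib.Helper2.P064BPiece
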